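import Vale.Agent.P176.Rickard.Defs

/-!
# Basic facts on the dual bimodule `DA`

Proof sketches.
* `eq_zero_of_forall`: `Module.forall_dual_apply_eq_zero_iff k a` (a `DA k A` is by definition a
  `A →ₗ[k] k`, use `DA.ofLin`).
* `baer`: given a left ideal `I` and `g : I →ₗ[A] DA k A`, the map `x ↦ g x 1` is a `k`-linear form on
  `I.restrictScalars k`; extend it to a `k`-linear form `ψ` on `A` (`LinearMap.exists_extend`), and put
  `g' a := a • ofLin ψ` i.e. `g' = LinearMap.toSpanSingleton A _ (ofLin ψ)`. For `x ∈ I`:
  `(g' x) y = ψ (y * x) = g ⟨y * x, _⟩ 1 = (y • g x) 1 = g x (1 * y) = g x y`.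
* `exists_rmul`: `φ ↦ h φ 1` is a `k`-linear form on the dual of `A`, so by reflexivity
  (`Module.evalEquiv k A`, or `Module.eval_apply_eq..`, surjectivity of `Module.Dual.eval k A`)
  there is `a` with `h φ 1 = φ a` for all `φ`.
  Then `h φ x = (x • h φ) 1 = h (x • φ) 1 = (x • φ) a = φ (a * x)`.
  (`k`-linearity of `φ ↦ h φ 1`: `c • φ` corresponds to `(algebraMap k A c) • φ`.)
* `finite`: a finite `k`-spanning set of `A →ₗ[k] k` also spans over `A`, as
  `c • φ = (algebraMap k A c) • φ`.
-/

universe u

namespace Vale.Agent.P176.Rickard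

variable {k : Type u} {A : Type u} [Field k] [Ring A] [Algebra k A]

namespace DA

/-- Linear forms separate points. -/
lemma eq_zero_of_forall (a : A) (h : ∀ φ : DA k A, φ a = 0) : a = 0 :=
  (Module.forall_dual_apply_eq_zero_iff k a).1 (fun φ => h (DA.ofLin φ))

/-- Scalars of the field act through the algebra map. -/
lemma algebraMap_smul_apply (c : k) (φ : DA k A) (x : A) :
    ((algebraMap k A c) • φ) x = c * φ x := by
  rw [smul_apply, ← Algebra.commutes, ← Algebra.smul_def, map_smul']

/-- `DA` satisfies the Baer criterion. -/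
theorem baer : Module.Baer A (DA k A) := by
  intro I g
  let f : (I.restrictScalars k) →ₗ[k] k :=
    { toFun := fun x => g ⟨x.1, x.2⟩ 1
      map_add' := by
        intro x y
        have : (⟨(x + y).1, (x + y).2⟩ : I) = ⟨x.1, x.2⟩ + ⟨y.1, y.2⟩ := rfl
        rw [this, map_add, add_apply]
      map_smul' := by
        intro c x
        have : (⟨(c • x).1, (c • x).2⟩ : I) = (algebraMap k A c) • (⟨x.1, x.2⟩ : I) := by
          apply Subtype.ext
          change c • x.1 = algebraMap k A c * x.1
          rw [Algebra.smul_def]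
        rw [this, map_smul, algebraMap_smul_apply]
        rfl }
  obtain ⟨ψ, hψ⟩ := LinearMap.exists_extend f
  refine ⟨LinearMap.toSpanSingleton A (DA k A) (ofLin ψ), ?_⟩
  intro x hx
  ext y
  rw [LinearMap.toSpanSingleton_apply, smul_apply, ofLin_apply]
  have hyx : y * x ∈ I := I.mul_mem_left y hx
  have h1 : ψ (y * x) = f ⟨y * x, hyx⟩ := by
    rw [← hψ]; rfl
  rw [h1]
  change g ⟨y * x, hyx⟩ 1 = g ⟨x, hx⟩ y
  have h2 : (⟨y * x, hyx⟩ : I) = y • (⟨x, hx⟩ : I) := rfl
  rw [h2, map_smul, smul_apply, one_mul]

instance injective : Module.Injective A (DA k A) := baer.injective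

/-- Every left-linear endomorphism of `DA` is a right multiplication. -/
theorem exists_rmul [Module.Finite k A] (h : DA k A →ₗ[A] DA k A) : ∃ a : A, h = rmul a := by
  let Λ : Module.Dual k (Module.Dual k A) :=
    { toFun := fun φ => h (ofLin φ) 1
      map_add' := by
        intro φ ψ
        have : ofLin (φ + ψ) = ofLin φ + ofLin ψ := rfl
        rw [this, map_add, add_apply]
      map_smul' := by
        intro c φ
        have : ofLin (c • φ) = (algebraMap k A c) • ofLin φ := by
          ext x
          rw [algebraMap_smul_apply]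
          rfl
        rw [this, map_smul, algebraMap_smul_apply]
        rfl }
  refine ⟨(Module.evalEquiv k A).symm Λ, ?_⟩
  have key : ∀ φ : DA k A, φ ((Module.evalEquiv k A).symm Λ) = h φ 1 := fun φ =>
    Module.apply_evalEquiv_symm_apply k A (toLin φ) Λ
  ext φ x
  rw [rmul_apply]
  have h1 : h φ x = h (x • φ) 1 := by
    rw [map_smul, smul_apply, one_mul]
  rw [h1, ← key, smul_apply]

/-- `DA` is a finitely generated left module. -/
instance finite [Module.Finite k A] : Module.Finite A (DA k A) := by
  let _ : Module k (DA k A) := inferInstanceAs (Module k (A →ₗ[k] k))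
  have : IsScalarTower k A (DA k A) := ⟨by
    intro c a φ
    ext x
    change φ (x * (c • a)) = c * φ (x * a)
    rw [mul_smul_comm, map_smul']⟩
  have : Module.Finite k (DA k A) := inferInstanceAs (Module.Finite k (A →ₗ[k] k))
  exact Module.Finite.of_restrictScalars_finite k A (DA k A)

end DA

end Vale.Agent.P176.Rickard
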