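import Vale.Agent.P176.Rickard.Defs

/-!
# Direct sums of injective modules over a left Noetherian ring, and reduced products

Proof sketches (all via the Baer criterion `Module.Baer.injective`, `Module.Baer.of_injective`).
* `finsupp_injective`: let `I` be a left ideal, `g : I →ₗ[A] (S →₀ Q)`. `I` is finitely generated, so the
  union `S₀` of the supports of the images of the generators is a finite set containing the support
  of every `g x`. For `s ∈ S₀` extend `x ↦ g x s` to `g'ₛ : A →ₗ[A] Q` and put
  `g' a = ∑ s ∈ S₀, single s (g'ₛ a)`.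
* `FS_injective`: same argument; there is `N` with `(g x).1 j = 0` for all `x` and all `j ≥ N`;
  extend the components `j < N` and use `0` for `j ≥ N`.
* `RP.exists_section`: by `FS_injective` the inclusion `FS E → ∀ j, E j` has a retraction `ρ`
  (`Module.Injective.extension_property`); `id - incl ∘ ρ` kills `FS E`, so it factors through the quotient
  (`Submodule.liftQ`).
* `RP_injective`: a retract of the injective module `∀ j, E j` (`Module.Injective.pi`).
-/

universe u

namespace Vale.Agent.P176.Rickard

variable {A : Type u} [Ring A] [IsNoetherianRing A]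

/-- Bass-Papp for finitely supported functions. -/
theorem finsupp_injective (S : Type u) (Q : Type u) [AddCommGroup Q] [Module A Q]
    [Module.Injective A Q] : Module.Injective A (S →₀ Q) := by
  classical
  apply Module.Baer.injective
  intro I g
  have hfg : (LinearMap.range g).FG := by
    rw [LinearMap.range_eq_map]
    exact (Module.Finite.fg_top (R := A) (M := I)).map g
  obtain ⟨t, ht⟩ := hfg
  set S₀ : Finset S := t.biUnion Finsupp.support with hS₀
  have hle : Submodule.span A (t : Set (S →₀ Q)) ≤ Finsupp.supported Q A (S₀ : Set S) := by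
    rw [Submodule.span_le]
    intro y hy
    rw [SetLike.mem_coe, Finsupp.mem_supported]
    intro s hs
    rw [Finset.mem_coe, hS₀, Finset.mem_biUnion]
    exact ⟨y, hy, hs⟩
  have hsupp : ∀ x : I, ∀ s, s ∉ S₀ → g x s = 0 := by
    intro x s hs
    have h1 : g x ∈ Finsupp.supported Q A (S₀ : Set S) :=
      hle (ht ▸ LinearMap.mem_range_self g x)
    rw [Finsupp.mem_supported] at h1
    by_contra hne
    exact hs (h1 (Finsupp.mem_support_iff.2 hne))
  have hQ : Module.Baer A Q := Module.Baer.of_injective inferInstance
  choose g' hg' using fun s : S => hQ I ((Finsupp.lapply s) ∘ₗ g)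
  refine ⟨∑ s ∈ S₀, (Finsupp.lsingle s) ∘ₗ g' s, ?_⟩
  intro x hx
  ext s'
  rw [LinearMap.sum_apply, Finsupp.finsetSum_apply]
  simp only [LinearMap.comp_apply, Finsupp.lsingle_apply, Finsupp.single_apply]
  rw [Finset.sum_ite_eq' S₀ s' (fun s => g' s x)]
  by_cases hs : s' ∈ S₀
  · rw [if_pos hs, hg' s' x hx]
    rfl
  · rw [if_neg hs, hsupp ⟨x, hx⟩ s' hs]

variable (E : ℕ → Type u) [∀ j, AddCommGroup (E j)] [∀ j, Module A (E j)]
  [∀ j, Module.Injective A (E j)]

/-- The elements of `FS E` vanishing from the index `N` on. -/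
def FSle (N : ℕ) : Submodule A (FS (A := A) E) where
  carrier := {y | ∀ j, N ≤ j → y.1 j = 0}
  add_mem' := by
    intro x y hx hy j hj
    change x.1 j + y.1 j = 0
    rw [hx j hj, hy j hj, add_zero]
  zero_mem' := fun _ _ => rfl
  smul_mem' := by
    intro a x hx j hj
    change a • x.1 j = 0
    rw [hx j hj, smul_zero]

omit [IsNoetherianRing A] [∀ j, Module.Injective A (E j)] in
/-- A finite set of eventually vanishing sequences vanishes uniformly from some index on. -/
theorem exists_uniform_bound (t : Finset (FS (A := A) E)) :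
    ∃ N : ℕ, ∀ y ∈ t, ∀ j, N ≤ j → y.1 j = 0 := by
  classical
  induction t using Finset.induction_on with
  | empty => exact ⟨0, fun y hy => absurd hy (Finset.notMem_empty y)⟩
  | insert a t _ ih =>
    obtain ⟨N, hN⟩ := ih
    obtain ⟨N', hN'⟩ := a.2
    refine ⟨max N N', ?_⟩
    intro y hy j hj
    rcases Finset.mem_insert.1 hy with rfl | hy
    · exact hN' j (le_trans (le_max_right _ _) hj)
    · exact hN y hy j (le_trans (le_max_left _ _) hj)

/-- Bass-Papp for eventually vanishing sequences. -/
theorem FS_injective : Module.Injective A (FS (A := A) E) := by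
  classical
  apply Module.Baer.injective
  intro I g
  have hfg : (LinearMap.range g).FG := by
    rw [LinearMap.range_eq_map]
    exact (Module.Finite.fg_top (R := A) (M := I)).map g
  obtain ⟨t, ht⟩ := hfg
  obtain ⟨N, hN⟩ := exists_uniform_bound E t
  have hle : Submodule.span A (t : Set (FS (A := A) E)) ≤ FSle E N := by
    rw [Submodule.span_le]
    intro y hy
    exact hN y hy
  have hvan : ∀ x : I, ∀ j, N ≤ j → (g x).1 j = 0 := by
    intro x
    exact hle (ht ▸ LinearMap.mem_range_self g x)
  have hQ : ∀ j, Module.Baer A (E j) := fun j => Module.Baer.of_injective inferInstance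
  choose g' hg' using fun j : ℕ =>
    hQ j I ((LinearMap.proj j) ∘ₗ (FS (A := A) E).subtype ∘ₗ g)
  refine ⟨LinearMap.codRestrict (FS (A := A) E)
    (LinearMap.pi (fun j => if j < N then g' j else 0)) ?_, ?_⟩
  · intro a
    refine ⟨N, fun j hj => ?_⟩
    rw [LinearMap.pi_apply, if_neg (not_lt.2 hj)]
    rfl
  · intro x hx
    apply Subtype.ext
    funext j
    change (LinearMap.pi (fun j => if j < N then g' j else 0)) x j = (g ⟨x, hx⟩).1 j
    rw [LinearMap.pi_apply]
    by_cases hj : j < N
    · rw [if_pos hj, hg' j x hx]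
      rfl
    · rw [if_neg hj, hvan ⟨x, hx⟩ j (not_lt.1 hj)]
      rfl

/-- The projection onto the reduced product of injectives has a linear section. -/
theorem RP.exists_section :
    ∃ σ : RP (A := A) E →ₗ[A] (∀ j, E j), (FS (A := A) E).mkQ ∘ₗ σ = LinearMap.id := by
  have hinj := FS_injective (A := A) E
  obtain ⟨ρ, hρ⟩ := Module.Injective.extension_property A (FS (A := A) E) (FS (A := A) E)
    (∀ j, E j) (FS (A := A) E).subtype (Submodule.injective_subtype _) LinearMap.id
  have hker : FS (A := A) E ≤
      LinearMap.ker (LinearMap.id - (FS (A := A) E).subtype ∘ₗ ρ) := by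
    intro x hx
    rw [LinearMap.mem_ker, LinearMap.sub_apply, LinearMap.id_apply, LinearMap.comp_apply]
    have h1 : ρ x = ⟨x, hx⟩ := DFunLike.congr_fun hρ ⟨x, hx⟩
    rw [h1]
    exact sub_self x
  refine ⟨(FS (A := A) E).liftQ _ hker, ?_⟩
  apply Submodule.linearMap_qext
  ext1 x
  change (FS (A := A) E).mkQ (x - (ρ x).1) = (FS (A := A) E).mkQ x
  rw [map_sub, sub_eq_self, Submodule.mkQ_apply, Submodule.Quotient.mk_eq_zero]
  exact (ρ x).2

/-- The reduced product of injectives is injective. -/
theorem RP_injective : Module.Injective A (RP (A := A) E) := by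
  obtain ⟨σ, hσ⟩ := RP.exists_section (A := A) E
  refine ⟨fun X Y _ _ _ _ f hf g => ?_⟩
  obtain ⟨h, hh⟩ := Module.Injective.extension_property A (∀ j, E j) X Y f hf (σ ∘ₗ g)
  refine ⟨(FS (A := A) E).mkQ ∘ₗ h, fun x => ?_⟩
  have h1 : h (f x) = σ (g x) := DFunLike.congr_fun hh x
  rw [LinearMap.comp_apply, h1]
  exact DFunLike.congr_fun hσ (g x)

end Vale.Agent.P176.Rickard
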