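import Vale.Agent.P176.Rickard.Swindle

/-!
# Finite free resolutions of modules of finite projective dimension

`exists_ffr d M`: a module `M` of projective dimension at most `d + 1` has a free resolution
`0 → F_{d+1} → F_d → ⋯ → F_0 → M → 0` (all `F_n = T n →₀ A`, `T n` empty for `n > d + 1`), and if the
top map `D d : F_{d+1} → F_d` has a linear retraction then the projective dimension of `M` is at
most `d`.

Proof sketch: induction on `d`, for all `M`.
* `d = 0`: let `F₀ = M →₀ A → M` be the canonical surjection with kernel `K`; `K` is projective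
  (`ShortComplex.ShortExact.hasProjectiveDimensionLT_X₁` or the `_iff` versions, together with
  `projective_iff_hasProjectiveDimensionLT_one` and `IsProjective.iff_projective`). By the swindle
  choose `F` free with `K × F` free. Use `0 → K × F → F₀ × F → M → 0` and transport along
  `Module.Free.chooseBasis .. |>.repr`. Define `T` by pattern matching
  (`0 ↦ _ , 1 ↦ _ , n + 2 ↦ PEmpty`). If the top map has a retraction then `M` is a direct summand
  of `F₀ × F`, hence projective.
* `d + 1`: take `0 → K → (M →₀ A) → M → 0`; `K` has projective dimension at most `d + 1`; take the data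
  `(T, D, ε)` for `K` and put `T' 0 = M`, `T' (n + 1) = T n`, `D' 0 = incl ∘ ε`, `D' (n + 1) = D n`
  (pattern matching, so that everything is definitional), `ε'` the canonical surjection.
  A retraction of the top map gives projective dimension at most `d` for `K`, hence at most `d + 1`
  for `M` (`ShortComplex.ShortExact.hasProjectiveDimensionLT_X₃`).
See `Vale/Agent/P176/Basic.lean` for examples of the use of `LinearMap.shortComplexKer`,
`LinearMap.shortExact_shortComplexKer` and `hasProjectiveDimensionLT_X₃_iff`.
-/

universe u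

open CategoryTheory

namespace Vale.Agent.P176.Rickard

variable {A : Type u} [Ring A]

/-- shift a sequence of index types by one, inserting `X` in degree zero -/
def shiftT (X : Type u) (T : ℕ → Type u) : ℕ → Type u
  | 0 => X
  | n + 1 => T n

/-- shift a sequence of maps by one, inserting `D0` in degree zero -/
def shiftD {X : Type u} {T : ℕ → Type u} (D0 : (T 0 →₀ A) →ₗ[A] (X →₀ A))
    (D : ∀ n, (T (n + 1) →₀ A) →ₗ[A] (T n →₀ A)) :
    ∀ n, (shiftT X T (n + 1) →₀ A) →ₗ[A] (shiftT X T n →₀ A)
  | 0 => D0
  | n + 1 => D n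

/-- a left split short exact sequence with projective middle term has a projective cokernel -/
theorem projective_of_retraction {P Q M : Type u} [AddCommGroup P] [Module A P] [AddCommGroup Q]
    [Module A Q] [AddCommGroup M] [Module A M] [Module.Projective A P]
    (ε : P →ₗ[A] M) (hε : Function.Surjective ε) (j : Q →ₗ[A] P)
    (hj : ∀ x, ε x = 0 ↔ ∃ y, j y = x) (r : P →ₗ[A] Q) (hr : r ∘ₗ j = LinearMap.id) :
    Module.Projective A M := by
  let p : P →ₗ[A] P := LinearMap.id - j ∘ₗ r
  have hp : LinearMap.ker ε ≤ LinearMap.ker p := by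
    intro x hx
    obtain ⟨y, rfl⟩ := (hj x).1 hx
    have : r (j y) = y := LinearMap.congr_fun hr y
    simp [p, this]
  let s : M →ₗ[A] P :=
    (Submodule.liftQ (LinearMap.ker ε) p hp) ∘ₗ (ε.quotKerEquivOfSurjective hε).symm.toLinearMap
  have hs : ∀ x, s (ε x) = p x := by
    intro x
    have : (ε.quotKerEquivOfSurjective hε).symm (ε x) = Submodule.Quotient.mk x := by
      rw [LinearEquiv.symm_apply_eq]
      rfl
    simp only [s, LinearMap.comp_apply, LinearEquiv.coe_coe, this]
    rfl
  refine Module.Projective.of_split s ε ?_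
  ext m
  obtain ⟨x, rfl⟩ := hε m
  have h0 : ε (j (r x)) = 0 := (hj _).2 ⟨r x, rfl⟩
  simp [hs, p, h0]

theorem exists_ffr (d : ℕ) (M : ModuleCat.{u} A) (hM : HasProjectiveDimensionLT M (d + 2)) :
    ∃ (T : ℕ → Type u) (D : ∀ n, (T (n + 1) →₀ A) →ₗ[A] (T n →₀ A)) (ε : (T 0 →₀ A) →ₗ[A] M),
      Function.Surjective ε ∧ (∀ x, ε x = 0 ↔ ∃ y, D 0 y = x) ∧
      (∀ n x, D n x = 0 ↔ ∃ y, D (n + 1) y = x) ∧
      (∀ n, d + 1 < n → IsEmpty (T n)) ∧
      ((∃ r : (T d →₀ A) →ₗ[A] (T (d + 1) →₀ A), r ∘ₗ D d = LinearMap.id) →
        HasProjectiveDimensionLT M (d + 1)) := by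
  induction d generalizing M with
  | zero =>
    let π : (M →₀ A) →ₗ[A] M := Finsupp.linearCombination A id
    have hπ : Function.Surjective π := Finsupp.linearCombination_id_surjective A M
    let S : ShortComplex (ModuleCat.{u} A) := π.shortComplexKer
    have hS : S.ShortExact := LinearMap.shortExact_shortComplexKer hπ
    have hP2 : Projective S.X₂ := by
      have : Module.Projective A (M →₀ A) := inferInstance
      exact (IsProjective.iff_projective (R := A) (M →₀ A)).1 this
    have hK1 : HasProjectiveDimensionLT S.X₁ 1 :=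
      (hS.hasProjectiveDimensionLT_X₃_iff 0 hP2).1 hM
    have hKp : Module.Projective A (LinearMap.ker π) :=
      (IsProjective.iff_projective (R := A) (LinearMap.ker π)).2
        (projective_iff_hasProjectiveDimensionLT_one.2 hK1)
    obtain ⟨F, _, _, hF, hKF⟩ := exists_free_prod_free (A := A) (LinearMap.ker π)
    let b1 := Module.Free.chooseBasis A (LinearMap.ker π × F)
    let b0 := Module.Free.chooseBasis A ((M →₀ A) × F)
    let ι1 := Module.Free.ChooseBasisIndex A (LinearMap.ker π × F)
    let ι0 := Module.Free.ChooseBasisIndex A ((M →₀ A) × F)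
    let j : (LinearMap.ker π × F) →ₗ[A] ((M →₀ A) × F) :=
      LinearMap.prodMap (LinearMap.ker π).subtype LinearMap.id
    let D0 : (ι1 →₀ A) →ₗ[A] (ι0 →₀ A) :=
      b0.repr.toLinearMap ∘ₗ j ∘ₗ b1.repr.symm.toLinearMap
    let ε : (ι0 →₀ A) →ₗ[A] M := π ∘ₗ LinearMap.fst A _ _ ∘ₗ b0.repr.symm.toLinearMap
    have hε : Function.Surjective ε := by
      intro m
      obtain ⟨x, rfl⟩ := hπ m
      exact ⟨b0.repr (x, 0), by simp [ε]⟩
    have hex : ∀ x, ε x = 0 ↔ ∃ y, D0 y = x := by
      intro x
      constructor
      · intro hx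
        have hx' : (b0.repr.symm x).1 ∈ LinearMap.ker π := hx
        refine ⟨b1.repr (⟨(b0.repr.symm x).1, hx'⟩, (b0.repr.symm x).2), ?_⟩
        simp [D0, j]
      · rintro ⟨y, rfl⟩
        have : π ((b1.repr.symm y).1 : M →₀ A) = 0 := (b1.repr.symm y).1.2
        simp [D0, j, ε]
    have hinj : ∀ x, D0 x = 0 → x = 0 := by
      intro x hx
      have h1 : j (b1.repr.symm x) = 0 := by
        have : b0.repr (j (b1.repr.symm x)) = 0 := hx
        simpa using this
      have h2 : b1.repr.symm x = 0 := by
        have h3 := Prod.ext_iff.1 h1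
        simp only [j, LinearMap.prodMap_apply, Submodule.subtype_apply, LinearMap.id_coe, id_eq,
          Prod.fst_zero, Prod.snd_zero, ZeroMemClass.coe_eq_zero] at h3
        exact Prod.ext h3.1 h3.2
      exact b1.repr.symm.injective (h2.trans (map_zero _).symm)
    refine ⟨shiftT ι0 (shiftT ι1 (fun _ => PEmpty)),
      shiftD D0 (shiftD 0 (fun _ => 0)), ε, hε, hex, ?_, ?_, ?_⟩
    · intro n x
      match n, x with
      | 0, x =>
        constructor
        · intro hx
          exact ⟨0, ((hinj x hx).trans (map_zero _).symm).symm⟩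
        · rintro ⟨y, rfl⟩
          exact map_zero D0
      | n + 1, x =>
        have hx : x = 0 := by
          have : Subsingleton ((PEmpty : Type u) →₀ A) := inferInstance
          exact Subsingleton.elim (α := (PEmpty : Type u) →₀ A) x 0
        constructor
        · intro _
          exact ⟨0, by rw [hx, map_zero]⟩
        · intro _
          rw [hx, map_zero]
    · intro n hn
      match n, hn with
      | n + 2, _ => exact inferInstanceAs (IsEmpty PEmpty)
    · rintro ⟨r, hr⟩
      have : Module.Projective A M := projective_of_retraction ε hε D0 hex r hr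
      exact projective_iff_hasProjectiveDimensionLT_one.1
        ((IsProjective.iff_projective (R := A) M).1 this)
  | succ d ih =>
    let π : (M →₀ A) →ₗ[A] M := Finsupp.linearCombination A id
    have hπ : Function.Surjective π := Finsupp.linearCombination_id_surjective A M
    let S : ShortComplex (ModuleCat.{u} A) := π.shortComplexKer
    have hS : S.ShortExact := LinearMap.shortExact_shortComplexKer hπ
    have hP2 : Projective S.X₂ := by
      have : Module.Projective A (M →₀ A) := inferInstance
      exact (IsProjective.iff_projective (R := A) (M →₀ A)).1 this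
    have hK1 : HasProjectiveDimensionLT S.X₁ (d + 2) :=
      (hS.hasProjectiveDimensionLT_X₃_iff (d + 1) hP2).1 hM
    obtain ⟨T, D, ε, hε, hex, hexn, hemp, hret⟩ := ih S.X₁ hK1
    let ε' : (T 0 →₀ A) →ₗ[A] LinearMap.ker π := ε
    let D0 : (T 0 →₀ A) →ₗ[A] (M →₀ A) := (LinearMap.ker π).subtype ∘ₗ ε'
    refine ⟨shiftT M T, shiftD D0 D, π, hπ, ?_, ?_, ?_, ?_⟩
    · intro x
      constructor
      · intro hx
        obtain ⟨y, hy⟩ := hε (⟨x, hx⟩ : LinearMap.ker π)
        exact ⟨y, congrArg Subtype.val hy⟩
      · rintro ⟨y, rfl⟩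
        exact (ε' y).2
    · intro n x
      match n, x with
      | 0, x =>
        refine Iff.trans ?_ (hex x)
        constructor
        · intro hx
          exact Subtype.ext hx
        · intro hx
          exact congrArg Subtype.val hx
      | n + 1, x => exact hexn n x
    · intro n hn
      match n, hn with
      | n + 1, hn => exact hemp n (by omega)
    · rintro ⟨r, hr⟩
      have h1 : HasProjectiveDimensionLT S.X₁ (d + 1) := hret ⟨r, hr⟩
      exact (hS.hasProjectiveDimensionLT_X₃_iff d hP2).2 h1

end Vale.Agent.P176.Rickard
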