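import Vale.Agent.P176.Rickard.DALemmas

/-!
# Every module embeds in a direct sum of copies of `DA`; lifting for injective modules

Proof sketches.
* `exists_embedding`: make `I` a `k`-vector space via `Module.compHom I (algebraMap k A)` (local
  instance, with `IsScalarTower k A I`), choose a `k`-basis `b : Module.Basis B k I`. Define `j x` as the
  finitely supported function `β ↦ (a ↦ b.repr (a • x) β)`. The support is finite: if `e₁, …, eₙ` span `A`
  over `k`, it is contained in the union of the supports of `b.repr (eᵢ • x)` (`Finsupp.onFinset`).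
  `j` is `A`-linear since `(a' • φ) a = φ (a * a')`, and injective since `j x β 1 = b.repr x β`.
* `lift_of_injective`: choose `j : I → (B →₀ DA)` injective; as `I` is injective there is a retraction
  `p` with `p ∘ j = id`. For `β : B` the map `f ∘ p ∘ lsingle β : DA → Z` is killed by `d`, so equals
  `d' ∘ g β`. Put `g := (Finsupp.lsum ℕ g) ∘ j`. Then `d' ∘ lsum g = f ∘ p` (check on `single β φ`).
-/

universe u

namespace Vale.Agent.P176.Rickard

open Finsupp

variable (k : Type u) {A : Type u} [Field k] [Ring A] [Algebra k A] [Module.Finite k A]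

/-- Every `A`-module embeds in a direct sum of copies of `DA`. -/
theorem exists_embedding (I : Type u) [AddCommGroup I] [Module A I] :
    ∃ (B : Type u) (j : I →ₗ[A] (B →₀ DA k A)), Function.Injective j := by
  classical
  let _ : Module k I := Module.compHom I (algebraMap k A)
  have : IsScalarTower k A I := ⟨fun c a x => by
    change (c • a) • x = (algebraMap k A c) • (a • x)
    rw [Algebra.smul_def, mul_smul]⟩
  let b := Module.Basis.ofVectorSpace k I
  obtain ⟨s, hs⟩ := (Module.Finite.fg_top : (⊤ : Submodule k A).FG)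
  let φ : I → Module.Basis.ofVectorSpaceIndex k I → DA k A := fun x β =>
    DA.ofLin ((Finsupp.lapply β) ∘ₗ b.repr.toLinearMap ∘ₗ
      (LinearMap.toSpanSingleton A I x).restrictScalars k)
  have hφ : ∀ x β a, φ x β a = b.repr (a • x) β := fun x β a => rfl
  have hsupp : ∀ x β, φ x β ≠ 0 → β ∈ s.biUnion (fun e => (b.repr (e • x)).support) := by
    intro x β h
    by_contra hcon
    apply h
    have h0 : ∀ e ∈ s, φ x β e = 0 := by
      intro e he
      by_contra hne
      apply hcon
      rw [Finset.mem_biUnion]
      exact ⟨e, he, by rw [Finsupp.mem_support_iff]; exact hne⟩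
    have : (φ x β).toLin = 0 := by
      apply LinearMap.ext_on hs
      intro e he
      exact h0 e he
    exact this
  let jf : I → (Module.Basis.ofVectorSpaceIndex k I →₀ DA k A) := fun x =>
    Finsupp.onFinset (s.biUnion (fun e => (b.repr (e • x)).support)) (φ x) (hsupp x)
  have hjf : ∀ x β a, jf x β a = b.repr (a • x) β := fun x β a => rfl
  refine ⟨Module.Basis.ofVectorSpaceIndex k I,
    { toFun := jf
      map_add' := ?_
      map_smul' := ?_ }, ?_⟩
  · intro x y
    ext β a
    rw [Finsupp.add_apply, DA.add_apply, hjf, hjf, hjf, smul_add, map_add, Finsupp.add_apply]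
  · intro a' x
    ext β a
    rw [RingHom.id_apply, Finsupp.smul_apply, DA.smul_apply, hjf, hjf, mul_smul]
  · intro x y hxy
    have hxy' : jf x = jf y := hxy
    apply b.repr.injective
    ext β
    have := congrArg (fun F => F β 1) hxy'
    simp only [hjf, one_smul] at this
    exact this

/-- If cocycles out of `DA` are coboundaries, the same holds for cocycles out of any injective
module. -/
theorem lift_of_injective {Z' Z Z'' : Type u} [AddCommGroup Z'] [Module A Z'] [AddCommGroup Z]
    [Module A Z] [AddCommGroup Z''] [Module A Z''] (d' : Z' →ₗ[A] Z) (d : Z →ₗ[A] Z'')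
    (h : ∀ f : DA k A →ₗ[A] Z, d ∘ₗ f = 0 → ∃ g : DA k A →ₗ[A] Z', d' ∘ₗ g = f)
    (I : Type u) [AddCommGroup I] [Module A I] [Module.Injective A I] (f : I →ₗ[A] Z)
    (hf : d ∘ₗ f = 0) : ∃ g : I →ₗ[A] Z', d' ∘ₗ g = f := by
  classical
  obtain ⟨B, j, hj⟩ := exists_embedding k (A := A) I
  obtain ⟨p, hp⟩ := Module.Injective.out (R := A) (Q := I) j hj (LinearMap.id : I →ₗ[A] I)
  have hex : ∀ β : B, ∃ g : DA k A →ₗ[A] Z', d' ∘ₗ g = f ∘ₗ p ∘ₗ Finsupp.lsingle β := by
    intro β
    apply h
    rw [← LinearMap.comp_assoc, hf, LinearMap.zero_comp]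
  choose g hg using hex
  have hG : d' ∘ₗ (Finsupp.lsum ℕ g) = f ∘ₗ p := by
    apply Finsupp.lhom_ext'
    intro β
    rw [LinearMap.comp_assoc, LinearMap.comp_assoc, ← hg β]
    congr 1
    ext φ
    simp
  refine ⟨(Finsupp.lsum ℕ g) ∘ₗ j, ?_⟩
  rw [← LinearMap.comp_assoc, hG]
  ext x
  simp [hp x]

end Vale.Agent.P176.Rickard
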