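import Vale.Agent.P176.Rickard.Nakayama
import Vale.Agent.P176.Rickard.BassPapp

/-!
# The reduced product complex: definition, injectivity of the terms, non-exactness in degree zero

Proof sketches.
* `Yd_comp`: `RP.map_comp`, `nu_comp`, `nu_zero`; the map induced by zero maps is zero.
* `YX_injective`: `A` is left Noetherian (`isNoetherian_of_tower k`, as `A` is a finite `k`-module),
  `finsupp_injective`, `RP_injective`.
* `Yd_zero_not_injective`: for each `j` the map `nu (δ j 0)` is not injective: otherwise, its source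
  being an injective module, it has a retraction (`Module.Injective.extension_property`), and
  `exists_retraction_of_nu` contradicts `hns j`. Choose `z j ≠ 0` with `nu (δ j 0) (z j) = 0`. The class of
  `z` in the reduced product is nonzero (`RP.mk_eq_zero`) and is killed by `Yd k δ 0`.
-/

universe u

namespace Vale.Agent.P176.Rickard

open Finsupp

variable (k : Type u) {A : Type u} [Field k] [Ring A] [Algebra k A]
variable {T : ℕ → ℕ → Type u} (δ : ∀ j t, (T j t →₀ A) →ₗ[A] (T j (t + 1) →₀ A))

/-- The terms of the complex. -/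
abbrev YX (k : Type u) {A : Type u} [Field k] [Ring A] [Algebra k A] (T : ℕ → ℕ → Type u) (t : ℕ) :
    Type u :=
  RP (A := A) (fun j => T j t →₀ DA k A)

/-- The differential. -/
noncomputable def Yd (t : ℕ) : YX k (A := A) T t →ₗ[A] YX k (A := A) T (t + 1) :=
  RP.map (fun j => nu (δ j t))

lemma Yd_comp (hδ : ∀ j t, δ j (t + 1) ∘ₗ δ j t = 0) (t : ℕ) :
    Yd k δ (t + 1) ∘ₗ Yd k δ t = 0 := by
  unfold Yd
  rw [RP.map_comp]
  have h : (fun j => (nu (δ j (t + 1)) : (T j (t + 1) →₀ DA k A) →ₗ[A] _) ∘ₗ nu (δ j t))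
      = fun j => 0 := by
    funext j
    rw [← nu_comp, hδ, nu_zero]
  rw [h]
  refine LinearMap.ext fun x => ?_
  induction x using Submodule.Quotient.induction_on with
  | _ x =>
    rw [RP.map_mk, LinearMap.zero_apply, RP.mk_eq_zero]
    exact ⟨0, fun j _ => by simp⟩

variable [Module.Finite k A]

lemma YX_injective (t : ℕ) : Module.Injective A (YX k (A := A) T t) := by
  have : IsNoetherian k A := inferInstance
  have : IsNoetherianRing A := isNoetherian_of_tower k inferInstance
  have : ∀ j, Module.Injective A (T j t →₀ DA k A) := fun j =>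
    finsupp_injective (T j t) (DA k A)
  exact RP_injective (fun j => T j t →₀ DA k A)

lemma Yd_zero_not_injective
    (hns : ∀ j, ¬ ∃ r : (T j 1 →₀ A) →ₗ[A] (T j 0 →₀ A), r ∘ₗ δ j 0 = LinearMap.id) :
    ¬ Function.Injective (Yd k δ 0) := by
  have : IsNoetherian k A := inferInstance
  have : IsNoetherianRing A := isNoetherian_of_tower k inferInstance
  have hni : ∀ j, ¬ Function.Injective (nu (δ j 0) : (T j 0 →₀ DA k A) →ₗ[A] _) := by
    intro j hinj
    have : Module.Injective A (T j 0 →₀ DA k A) := finsupp_injective (T j 0) (DA k A)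
    obtain ⟨r, hr⟩ := Module.Injective.extension_property A (T j 0 →₀ DA k A) _ _
      (nu (δ j 0) : (T j 0 →₀ DA k A) →ₗ[A] _) hinj LinearMap.id
    exact hns j (exists_retraction_of_nu (k := k) (δ j 0) r hr)
  have hz : ∀ j, ∃ z : T j 0 →₀ DA k A, z ≠ 0 ∧ nu (δ j 0) z = 0 := by
    intro j
    by_contra hcon
    apply hni j
    rw [injective_iff_map_eq_zero]
    intro z hz
    by_contra hne
    exact hcon ⟨z, hne, hz⟩
  choose z hz0 hz1 using hz
  intro hinj
  have h1 : Yd k δ 0 (Submodule.Quotient.mk z) = 0 := by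
    unfold Yd
    rw [RP.map_mk, RP.mk_eq_zero]
    exact ⟨0, fun j _ => by simp [hz1]⟩
  have h2 : (Submodule.Quotient.mk z : YX k (A := A) T 0) = 0 :=
    hinj (by rw [h1, map_zero])
  rw [RP.mk_eq_zero] at h2
  obtain ⟨N, hN⟩ := h2
  exact hz0 N (hN N le_rfl)

end Vale.Agent.P176.Rickard
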