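import Vale.Agent.P176.Rickard.Complex

/-!
# The reduced product complex: cocycles out of `DA` are coboundaries

Proof sketch. Let `f : DA → YX t` with `Yd t ∘ f = 0`.
1. By `RP.exists_section` (the modules `T j t →₀ DA` are injective by `finsupp_injective`, `A` is left
   Noetherian by `isNoetherian_of_tower k`) lift `f` to `F : DA →ₗ[A] ∀ j, (T j t →₀ DA)` with
   `mkQ ∘ F = f`. Let `F j := proj j ∘ F`.
2. For every `φ`, the family `j ↦ nu (δ j t) (F j φ)` is eventually zero (`RP.mk_eq_zero`). As `DA` is a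
   finitely generated module (`DA.finite`), there is `N` with `nu (δ j t) ∘ F j = 0` for all `j ≥ N`.
3. By `theta_surjective` write `F j = theta (x j)`. By `nu_theta` and `theta_injective`,
   `δ j t (x j) = 0` for `j ≥ N`.
4. Case `t = 0`: `x j = 0` for `j ≥ N` by injectivity, so `F j = 0` and `f φ = mk (F φ) = 0`.
   Case `t + 1`: for `j ≥ max N (t + 1)` choose `y j` with `δ j t (y j) = x j` (and `y j = 0` otherwise).
   Let `g := mkQ ∘ LinearMap.pi (fun j => theta (y j))`. Then `Yd t (g φ) - f φ` is the class of a family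
   vanishing for `j ≥ max N (t + 1)` by `nu_theta`.
-/

universe u

namespace Vale.Agent.P176.Rickard

open Finsupp

variable (k : Type u) {A : Type u} [Field k] [Ring A] [Algebra k A] [Module.Finite k A]
variable {T : ℕ → ℕ → Type u} (δ : ∀ j t, (T j t →₀ A) →ₗ[A] (T j (t + 1) →₀ A))

/-- Common part: a cocycle is represented by a family `theta (x j)` with `δ j t (x j) = 0`
from some index on. -/
lemma exists_rep (t : ℕ) (f : DA k A →ₗ[A] YX k (A := A) T t) (hf : Yd k δ t ∘ₗ f = 0) :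
    ∃ (x : ∀ j, T j t →₀ A) (N : ℕ),
      (∀ φ, f φ = Submodule.Quotient.mk (fun j => theta (x j) φ)) ∧
      ∀ j, N ≤ j → δ j t (x j) = 0 := by
  classical
  have hN : IsNoetherianRing A := isNoetherian_of_tower k inferInstance
  have hinj : ∀ j, Module.Injective A (T j t →₀ DA k A) := fun j => finsupp_injective _ _
  obtain ⟨σ, hσ⟩ := RP.exists_section (A := A) (fun j => T j t →₀ DA k A)
  have hx : ∀ j, ∃ x : T j t →₀ A,
      (theta x : DA k A →ₗ[A] (T j t →₀ DA k A)) = LinearMap.proj j ∘ₗ σ ∘ₗ f :=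
    fun j => theta_surjective _
  choose x hx using hx
  have hrep : ∀ φ, f φ = Submodule.Quotient.mk (fun j => theta (x j) φ) := by
    intro φ
    have h1 : (FS (A := A) (fun j => T j t →₀ DA k A)).mkQ (σ (f φ)) = f φ :=
      LinearMap.congr_fun hσ (f φ)
    rw [← h1, Submodule.mkQ_apply]
    congr 1
    funext j
    rw [hx j]
    rfl
  have hev : ∀ φ : DA k A, ∃ N : ℕ, ∀ j, N ≤ j → theta (δ j t (x j)) φ = 0 := by
    intro φ
    have h1 : Yd k δ t (f φ) = 0 := LinearMap.congr_fun hf φ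
    rw [hrep φ] at h1
    unfold Yd at h1
    rw [RP.map_mk, RP.mk_eq_zero] at h1
    obtain ⟨N, hN⟩ := h1
    refine ⟨N, fun j hj => ?_⟩
    have := hN j hj
    rw [piMap_apply, nu_theta] at this
    exact this
  choose Nφ hNφ using hev
  obtain ⟨G, hG⟩ := (Module.Finite.fg_top : (⊤ : Submodule A (DA k A)).FG)
  refine ⟨x, G.sup Nφ, hrep, fun j hj => ?_⟩
  apply theta_injective (k := k)
  rw [theta_zero]
  apply LinearMap.ext_on hG
  intro φ hφ
  rw [LinearMap.zero_apply]
  exact hNφ φ j ((Finset.le_sup hφ).trans hj)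

lemma Yd_DA_zero (hinj : ∀ j, Function.Injective (δ j 0))
    (f : DA k A →ₗ[A] YX k (A := A) T 0) (hf : Yd k δ 0 ∘ₗ f = 0) : f = 0 := by
  obtain ⟨x, N, hrep, hx⟩ := exists_rep k δ 0 f hf
  ext φ
  rw [hrep φ, LinearMap.zero_apply, RP.mk_eq_zero]
  refine ⟨N, fun j hj => ?_⟩
  have h0 : x j = 0 := hinj j (by rw [hx j hj, map_zero])
  rw [h0, theta_zero, LinearMap.zero_apply]

lemma Yd_DA_succ (hex : ∀ j t, t < j → ∀ x, δ j (t + 1) x = 0 → ∃ y, δ j t y = x) (t : ℕ)
    (f : DA k A →ₗ[A] YX k (A := A) T (t + 1)) (hf : Yd k δ (t + 1) ∘ₗ f = 0) :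
    ∃ g : DA k A →ₗ[A] YX k (A := A) T t, Yd k δ t ∘ₗ g = f := by
  classical
  obtain ⟨x, N, hrep, hx⟩ := exists_rep k δ (t + 1) f hf
  have hy : ∀ j, ∃ y : T j t →₀ A, max N (t + 1) ≤ j → δ j t y = x j := by
    intro j
    by_cases hj : max N (t + 1) ≤ j
    · obtain ⟨y, hy⟩ := hex j t (lt_of_lt_of_le (Nat.lt_succ_self t) ((le_max_right _ _).trans hj))
        (x j) (hx j ((le_max_left _ _).trans hj))
      exact ⟨y, fun _ => hy⟩
    · exact ⟨0, fun h => absurd h hj⟩
  choose y hy using hy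
  refine ⟨(FS (A := A) (fun j => T j t →₀ DA k A)).mkQ ∘ₗ
    LinearMap.pi (fun j => theta (y j)), ?_⟩
  ext φ
  rw [hrep φ, LinearMap.comp_apply, LinearMap.comp_apply, Submodule.mkQ_apply]
  unfold Yd
  rw [RP.map_mk, Submodule.Quotient.eq]
  refine ⟨max N (t + 1), fun j hj => ?_⟩
  rw [Pi.sub_apply, piMap_apply, LinearMap.pi_apply, nu_theta, hy j hj, sub_self]

end Vale.Agent.P176.Rickard
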