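import Mathlib

/-!
# Injectives generate implies finite finitistic dimension: basic definitions

`DA k A` is the `k`-dual of the finite dimensional algebra `A`, seen as a left `A`-module.
`theta`, `nu` describe the Nakayama functor on free modules `S →₀ A`.
`RP E` is the reduced product of a sequence of modules.
-/

universe u v

namespace Vale.Agent.P176.Rickard

open Finsupp

section DA

variable (k : Type u) (A : Type u) [Field k] [Ring A] [Algebra k A]

/-- The `k`-dual of `A`. -/
def DA : Type u := A →ₗ[k] k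

namespace DA

instance : AddCommGroup (DA k A) := inferInstanceAs (AddCommGroup (A →ₗ[k] k))

instance : FunLike (DA k A) A k := inferInstanceAs (FunLike (A →ₗ[k] k) A k)

variable {k A}

/-- The underlying linear form. -/
def toLin (φ : DA k A) : A →ₗ[k] k := φ

/-- Constructor. -/
def ofLin (φ : A →ₗ[k] k) : DA k A := φ

@[simp] lemma toLin_apply (φ : DA k A) (x : A) : φ.toLin x = φ x := rfl
@[simp] lemma ofLin_apply (φ : A →ₗ[k] k) (x : A) : ofLin φ x = φ x := rfl

@[ext] lemma ext {φ ψ : DA k A} (h : ∀ x, φ x = ψ x) : φ = ψ := LinearMap.ext h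

@[simp] lemma add_apply (φ ψ : DA k A) (x : A) : (φ + ψ) x = φ x + ψ x := rfl
@[simp] lemma zero_apply (x : A) : (0 : DA k A) x = 0 := rfl
@[simp] lemma neg_apply (φ : DA k A) (x : A) : (-φ) x = -φ x := rfl
@[simp] lemma sub_apply (φ ψ : DA k A) (x : A) : (φ - ψ) x = φ x - ψ x := rfl
lemma map_add' (φ : DA k A) (x y : A) : φ (x + y) = φ x + φ y := φ.toLin.map_add x y
lemma map_zero' (φ : DA k A) : φ 0 = 0 := φ.toLin.map_zero
lemma map_smul' (φ : DA k A) (c : k) (x : A) : φ (c • x) = c * φ x := φ.toLin.map_smul c x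

/-- Left action: `(a • φ) x = φ (x * a)`. -/
instance : Module A (DA k A) where
  smul a φ := ofLin (φ.toLin ∘ₗ LinearMap.mulRight k a)
  one_smul φ := by ext x; change φ (x * 1) = φ x; rw [mul_one]
  mul_smul a b φ := by ext x; change φ (x * (a * b)) = φ (x * a * b); rw [mul_assoc]
  smul_zero a := by ext x; rfl
  smul_add a φ ψ := by ext x; rfl
  add_smul a b φ := by
    ext x; change φ (x * (a + b)) = φ (x * a) + φ (x * b); rw [mul_add, map_add']
  zero_smul φ := by ext x; change φ (x * 0) = 0; rw [mul_zero, map_zero']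

@[simp] lemma smul_apply (a : A) (φ : DA k A) (x : A) : (a • φ) x = φ (x * a) := rfl

/-- Right action by `a`, as a left-linear endomorphism: `(rmul a φ) x = φ (a * x)`. -/
def rmul (a : A) : DA k A →ₗ[A] DA k A where
  toFun φ := ofLin (φ.toLin ∘ₗ LinearMap.mulLeft k a)
  map_add' φ ψ := by ext x; rfl
  map_smul' b φ := by
    ext x; change φ (a * x * b) = φ (a * (x * b)); rw [mul_assoc]

@[simp] lemma rmul_apply (a : A) (φ : DA k A) (x : A) : rmul a φ x = φ (a * x) := rfl

lemma rmul_mul (a b : A) (φ : DA k A) : rmul (a * b) φ = rmul b (rmul a φ) := by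
  ext x; simp [mul_assoc]

lemma rmul_add (a b : A) (φ : DA k A) : rmul (a + b) φ = rmul a φ + rmul b φ := by
  ext x; simp [add_mul, map_add']

@[simp] lemma rmul_zero (φ : DA k A) : rmul (0 : A) φ = 0 := by
  ext x; simp [map_zero']

@[simp] lemma rmul_one (φ : DA k A) : rmul (1 : A) φ = φ := by
  ext x; simp

end DA

end DA

section Nakayama

variable {k : Type u} {A : Type u} [Field k] [Ring A] [Algebra k A]
variable {S T U : Type v}

/-- For `y` in the free module `S →₀ A`, the map `DA → (S →₀ DA)`, `φ ↦ ∑ s, single s (φ · y s)`. -/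
noncomputable def theta (y : S →₀ A) : DA k A →ₗ[A] (S →₀ DA k A) where
  toFun φ := y.mapRange (fun a => DA.rmul a φ) (DA.rmul_zero φ)
  map_add' φ ψ := by ext s x; simp
  map_smul' a φ := by ext s x; simp

@[simp] lemma theta_apply_apply (y : S →₀ A) (φ : DA k A) (s : S) :
    theta y φ s = DA.rmul (y s) φ := rfl

lemma theta_add (y z : S →₀ A) : (theta (y + z) : DA k A →ₗ[A] _) = theta y + theta z := by
  ext φ s x; simp [DA.rmul_add, add_mul, DA.map_add']

@[simp] lemma theta_zero : (theta (0 : S →₀ A) : DA k A →ₗ[A] _) = 0 := by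
  ext φ s x; simp [DA.map_zero']

lemma theta_smul (a : A) (y : S →₀ A) (φ : DA k A) :
    theta (a • y) φ = theta y (DA.rmul a φ) := by
  ext s x; simp [mul_assoc]

lemma theta_single (s : S) (a : A) (φ : DA k A) :
    theta (single s a) φ = single s (DA.rmul a φ) := by
  classical
  ext t x
  by_cases h : s = t
  · subst h; simp
  · simp [Finsupp.single_eq_of_ne' h, Finsupp.single_eq_of_ne h, DA.map_zero']

/-- The Nakayama functor on maps between free modules. -/
noncomputable def nu (g : (S →₀ A) →ₗ[A] (T →₀ A)) : (S →₀ DA k A) →ₗ[A] (T →₀ DA k A) :=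
  Finsupp.lsum ℕ (fun s => theta (g (single s 1)))

@[simp] lemma nu_single (g : (S →₀ A) →ₗ[A] (T →₀ A)) (s : S) (φ : DA k A) :
    nu g (single s φ) = theta (g (single s 1)) φ := by
  simp [nu]

end Nakayama

section RP

variable {A : Type u} [Ring A]
variable (E : ℕ → Type v) [∀ j, AddCommGroup (E j)] [∀ j, Module A (E j)]

/-- Families that vanish from some index on. -/
def FS : Submodule A (∀ j, E j) where
  carrier := {x | ∃ N : ℕ, ∀ j, N ≤ j → x j = 0}
  add_mem' := by
    rintro x y ⟨N, hN⟩ ⟨N', hN'⟩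
    exact ⟨max N N', fun j hj => by
      simp [hN j (le_trans (le_max_left _ _) hj), hN' j (le_trans (le_max_right _ _) hj)]⟩
  zero_mem' := ⟨0, fun _ _ => rfl⟩
  smul_mem' := by
    rintro a x ⟨N, hN⟩
    exact ⟨N, fun j hj => by simp [hN j hj]⟩

lemma mem_FS {x : ∀ j, E j} : x ∈ FS (A := A) E ↔ ∃ N : ℕ, ∀ j, N ≤ j → x j = 0 := Iff.rfl

/-- The reduced product. -/
abbrev RP : Type v := (∀ j, E j) ⧸ FS (A := A) E

variable {E}
variable {E' : ℕ → Type v} [∀ j, AddCommGroup (E' j)] [∀ j, Module A (E' j)]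
variable {E'' : ℕ → Type v} [∀ j, AddCommGroup (E'' j)] [∀ j, Module A (E'' j)]

/-- The product of a family of linear maps. -/
def piMap (f : ∀ j, E j →ₗ[A] E' j) : (∀ j, E j) →ₗ[A] (∀ j, E' j) :=
  LinearMap.pi (fun j => f j ∘ₗ LinearMap.proj j)

@[simp] lemma piMap_apply (f : ∀ j, E j →ₗ[A] E' j) (x : ∀ j, E j) (j : ℕ) :
    piMap f x j = f j (x j) := rfl

/-- The map induced on reduced products. -/
def RP.map (f : ∀ j, E j →ₗ[A] E' j) : RP (A := A) E →ₗ[A] RP (A := A) E' :=
  Submodule.mapQ _ _ (piMap f) (by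
    rintro x ⟨N, hN⟩
    exact ⟨N, fun j hj => by simp [hN j hj]⟩)

@[simp] lemma RP.map_mk (f : ∀ j, E j →ₗ[A] E' j) (x : ∀ j, E j) :
    RP.map f (Submodule.Quotient.mk x) = Submodule.Quotient.mk (piMap f x) := rfl

lemma RP.mk_eq_zero {x : ∀ j, E j} :
    (Submodule.Quotient.mk x : RP (A := A) E) = 0 ↔ ∃ N : ℕ, ∀ j, N ≤ j → x j = 0 := by
  rw [Submodule.Quotient.mk_eq_zero]; rfl

lemma RP.map_comp (g : ∀ j, E' j →ₗ[A] E'' j) (f : ∀ j, E j →ₗ[A] E' j) :
    RP.map g ∘ₗ RP.map f = RP.map (fun j => g j ∘ₗ f j) := by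
  ext x
  rfl

end RP

end Vale.Agent.P176.Rickard
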