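import Mathlib

/-!
# Glue 2: morphisms from a single object to a shifted K-injective complex

Proof sketch. `DerivedCategory.singleFunctor C 0` is `CochainComplex.singleFunctor C 0 ⋙ Q`
(`DerivedCategory.singleFunctorIsoCompQ`), `(Q.obj L)⟦t⟧ ≅ Q.obj (L⟦t⟧)` (`Q.commShiftIso t`),
`Q ≅ HomotopyCategory.quotient _ _ ⋙ Qh` (`DerivedCategory.quotientCompQhIso`), and
`CochainComplex.IsKInjective.Qh_map_bijective` shows that every morphism to a K-injective complex
comes from the homotopy category. Morphisms `K ⟶ L⟦t⟧` in the homotopy category are cohomology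
classes: `CochainComplex.HomComplex.CohomologyClass.toHom_bijective`, every class is `mk` of a
cocycle, cocycles out of a single complex are `Cocycle.fromSingleMk f ..`
(`Cocycle.fromSingleMk_surjective`) and `Cocycle.fromSingleMk_mem_coboundaries_iff`,
`CohomologyClass.mk_eq_zero_iff` conclude. The file
`Mathlib/CategoryTheory/Abelian/Injective/Ext.lean` and
`Mathlib/Algebra/Homology/DerivedCategory/KInjective.lean`
(`bijective_toSmallShiftedHom_of_isKInjective`) contain very similar arguments.
-/

universe w v u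

open CategoryTheory Limits

namespace Vale.Agent.P176.Rickard

variable {C : Type u} [Category.{v} C] [Abelian C] [HasDerivedCategory.{w} C]

open CochainComplex HomComplex DerivedCategory in
/-- G2: morphisms in the derived category from a single object to a shift of a K-injective
complex vanish as soon as cocycles are coboundaries. -/
theorem hom_single_eq_zero (L : CochainComplex C ℤ) [L.IsKInjective] (I : C) (t : ℤ)
    (h : ∀ f : I ⟶ L.X t, f ≫ L.d t (t + 1) = 0 → ∃ g : I ⟶ L.X (t - 1), g ≫ L.d (t - 1) t = f)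
    (φ : (DerivedCategory.singleFunctor C 0).obj I ⟶ (DerivedCategory.Q.obj L)⟦t⟧) : φ = 0 := by
  let K : CochainComplex C ℤ := (CochainComplex.singleFunctor C 0).obj I
  let e1 : (DerivedCategory.singleFunctor C 0).obj I ≅ Q.obj K :=
    (DerivedCategory.singleFunctorIsoCompQ C 0).app I
  let e2 : (Q.obj L)⟦t⟧ ≅ Q.obj (L⟦t⟧) := ((Q.commShiftIso t).app L).symm
  let e3 : ∀ X : CochainComplex C ℤ, Q.obj X ≅ Qh.obj ((HomotopyCategory.quotient _ _).obj X) :=
    fun X => (quotientCompQhIso C).symm.app X
  let ψ : Qh.obj ((HomotopyCategory.quotient _ _).obj K) ⟶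
      Qh.obj ((HomotopyCategory.quotient _ _).obj (L⟦t⟧)) :=
    (e3 K).inv ≫ e1.inv ≫ φ ≫ e2.hom ≫ (e3 (L⟦t⟧)).hom
  have hψ : ψ = 0 := by
    obtain ⟨g, hg⟩ := (CochainComplex.IsKInjective.Qh_map_bijective
      ((HomotopyCategory.quotient _ _).obj K) (L⟦t⟧)).surjective ψ
    obtain ⟨c, rfl⟩ := (CohomologyClass.toHom_bijective K L t).surjective g
    obtain ⟨x, rfl⟩ := c.mk_surjective
    obtain ⟨f, hf, rfl⟩ := Cocycle.fromSingleMk_surjective x t (zero_add t) (t + 1) rfl
    have : CohomologyClass.mk (Cocycle.fromSingleMk f (zero_add t) (t + 1) rfl hf) = 0 := by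
      rw [CohomologyClass.mk_eq_zero_iff,
        Cocycle.fromSingleMk_mem_coboundaries_iff f (zero_add t) (t + 1) rfl hf (t - 1) (by lia)]
      exact h f hf
    rw [← hg, this, map_zero, Functor.map_zero]
  have : φ = e1.hom ≫ (e3 K).hom ≫ ψ ≫ (e3 (L⟦t⟧)).inv ≫ e2.inv := by
    simp [ψ]
  rw [this, hψ]
  simp

end Vale.Agent.P176.Rickard
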