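import Mathlib

/-!
# Glue 3: from complexes indexed by the naturals to complexes indexed by the integers

Useful API: `HomologicalComplex.extendXIso`, `HomologicalComplex.extend_d_eq`,
`HomologicalComplex.isZero_extend_X`, `HomologicalComplex.extend_exactAt_iff` (or similar),
`DerivedCategory.homologyFunctorFactors`, `HomologicalComplex.exactAt_iff_isZero_homology`,
`HomologicalComplex.exactAt_iff'`, `ShortComplex.exact_iff_mono`.
See also `Mathlib/CategoryTheory/Abelian/Injective/Extend.lean`.
-/

universe w v u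

open CategoryTheory Limits

namespace Vale.Agent.P176.Rickard

variable {C : Type u} [Category.{v} C] [Abelian C]

theorem extend_lifting (Y : CochainComplex C ℕ) (I : C)
    (h0 : ∀ f : I ⟶ Y.X 0, f ≫ Y.d 0 1 = 0 → f = 0)
    (hs : ∀ (t : ℕ) (f : I ⟶ Y.X (t + 1)), f ≫ Y.d (t + 1) (t + 2) = 0 →
      ∃ g : I ⟶ Y.X t, g ≫ Y.d t (t + 1) = f) (t : ℤ)
    (f : I ⟶ (Y.extend ComplexShape.embeddingUpNat).X t)
    (hf : f ≫ (Y.extend ComplexShape.embeddingUpNat).d t (t + 1) = 0) :
    ∃ g : I ⟶ (Y.extend ComplexShape.embeddingUpNat).X (t - 1),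
      g ≫ (Y.extend ComplexShape.embeddingUpNat).d (t - 1) t = f := by
  by_cases ht : 0 ≤ t
  · obtain ⟨n, rfl⟩ := Int.eq_ofNat_of_zero_le ht
    have e : ∀ m : ℕ, ComplexShape.embeddingUpNat.f m = (m : ℤ) := fun m => rfl
    have e1 : ComplexShape.embeddingUpNat.f (n + 1) = (n : ℤ) + 1 := by
      rw [e]; push_cast; rfl
    rw [Y.extend_d_eq ComplexShape.embeddingUpNat (e n) e1] at hf
    have hf' : (f ≫ (Y.extendXIso ComplexShape.embeddingUpNat (e n)).hom) ≫ Y.d n (n + 1) = 0 := by
      rw [← cancel_mono (Y.extendXIso ComplexShape.embeddingUpNat e1).inv, zero_comp]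
      simpa using hf
    cases n with
    | zero =>
      refine ⟨0, ?_⟩
      have := h0 _ hf'
      rw [← cancel_mono (Y.extendXIso ComplexShape.embeddingUpNat (e 0)).hom, this]
      simp
    | succ m =>
      obtain ⟨g, hg⟩ := hs m _ hf'
      have e2 : ComplexShape.embeddingUpNat.f m = ((m + 1 : ℕ) : ℤ) - 1 := by
        rw [e]; push_cast; ring
      refine ⟨g ≫ (Y.extendXIso ComplexShape.embeddingUpNat e2).inv, ?_⟩
      rw [Y.extend_d_eq ComplexShape.embeddingUpNat e2 (e (m + 1))]
      rw [← cancel_mono (Y.extendXIso ComplexShape.embeddingUpNat (e (m + 1))).hom]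
      simpa using hg
  · refine ⟨0, ?_⟩
    have hz : IsZero ((Y.extend ComplexShape.embeddingUpNat).X t) := by
      apply Y.isZero_extend_X
      intro i hi
      apply ht
      rw [← hi]
      exact Int.natCast_nonneg i
    exact hz.eq_of_tgt _ _

theorem mono_d_of_isZero [HasDerivedCategory.{w} C] (Y : CochainComplex C ℕ)
    (h : IsZero (DerivedCategory.Q.obj (Y.extend ComplexShape.embeddingUpNat))) :
    Mono (Y.d 0 1) := by
  have h1 : IsZero ((Y.extend ComplexShape.embeddingUpNat).homology 0) :=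
    (((DerivedCategory.homologyFunctorFactors C 0).app _).isZero_iff).1
      ((DerivedCategory.homologyFunctor C 0).map_isZero h)
  rw [← HomologicalComplex.exactAt_iff_isZero_homology,
    Y.extend_exactAt_iff ComplexShape.embeddingUpNat (j := 0) (j' := 0) rfl,
    Y.exactAt_iff' 0 0 1 (by simp) (by simp)] at h1
  exact h1.mono_g (Y.shape _ _ (by simp))

end Vale.Agent.P176.Rickard
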