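import Vale.Agent.P176.Rickard.Glue1
import Vale.Agent.P176.Rickard.Glue2
import Vale.Agent.P176.Rickard.Glue3

/-!
# Derived category glue

If the injective objects generate the derived category as a localizing subcategory, then a
cochain complex of injectives in nonnegative degrees which receives no nontrivial cohomology class
from an injective object is acyclic; in particular its first differential is a monomorphism.
-/

universe w v u

open CategoryTheory Limits

namespace Vale.Agent.P176.Rickard

variable {C : Type u} [Category.{v} C] [Abelian C] [HasDerivedCategory.{w} C]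

theorem mono_d_of_generate
    (hgen : ∀ P : ObjectProperty (DerivedCategory C), P.IsTriangulated →
      P.IsClosedUnderIsomorphisms →
      (∀ J : Type v, P.IsClosedUnderColimitsOfShape (Discrete J)) →
      (∀ I : C, Injective I → P ((DerivedCategory.singleFunctor C 0).obj I)) → ∀ X, P X)
    (Y : CochainComplex C ℕ) (hinj : ∀ n, Injective (Y.X n))
    (h0 : ∀ I : C, Injective I → ∀ f : I ⟶ Y.X 0, f ≫ Y.d 0 1 = 0 → f = 0)
    (hs : ∀ I : C, Injective I → ∀ (t : ℕ) (f : I ⟶ Y.X (t + 1)), f ≫ Y.d (t + 1) (t + 2) = 0 →
      ∃ g : I ⟶ Y.X t, g ≫ Y.d t (t + 1) = f) :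
    Mono (Y.d 0 1) := by
  apply mono_d_of_isZero
  apply isZero_of_generate hgen
  intro I hI t φ
  exact hom_single_eq_zero _ I t (fun f hf => extend_lifting Y I (h0 I hI) (hs I hI) t f hf) φ

end Vale.Agent.P176.Rickard
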