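import Mathlib

/-!
# Glue 1: an object right orthogonal to all shifts of injectives is zero

Proof sketch. Let `P0 : ObjectProperty (DerivedCategory C)` be the property of being isomorphic to
(or equal to) some shift `Z⟦t⟧`; it is stable under shift. Take `P := P0.leftOrthogonal`
(see `Mathlib/CategoryTheory/Triangulated/Orthogonal.lean`: the instance
`[P.IsStableUnderShift ℤ] : P.leftOrthogonal.IsTriangulated`). `P` is closed under isomorphisms and
under colimits of discrete shape (a map out of a colimit is zero as soon as all its components are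
zero: `IsColimit.hom_ext`). By `hZ` it contains the injectives, so by `hgen` it contains `Z`, hence
`𝟙 Z = 0` (up to the isomorphism `Z⟦0⟧ ≅ Z`).
One may also define `P X := ∀ t (f : X ⟶ Z⟦t⟧), f = 0` by hand and prove the closure properties.
-/

universe w v u

open CategoryTheory Limits

namespace Vale.Agent.P176.Rickard

variable {C : Type u} [Category.{v} C] [Abelian C] [HasDerivedCategory.{w} C]

/-- The objects isomorphic to a shift of `Z`. -/
def shiftsOf (Z : DerivedCategory C) : ObjectProperty (DerivedCategory C) :=
  fun X => ∃ t : ℤ, Nonempty (X ≅ Z⟦t⟧)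

instance (Z : DerivedCategory C) : (shiftsOf Z).IsStableUnderShift ℤ where
  isStableUnderShiftBy a :=
    { le_shift := by
        rintro X ⟨t, ⟨e⟩⟩
        exact ⟨t + a, ⟨(shiftFunctor _ a).mapIso e ≪≫ ((shiftFunctorAdd _ t a).app Z).symm⟩⟩ }

/-- G1: an object right orthogonal to all shifts of injectives is zero. -/
theorem isZero_of_generate
    (hgen : ∀ P : ObjectProperty (DerivedCategory C), P.IsTriangulated →
      P.IsClosedUnderIsomorphisms →
      (∀ J : Type v, P.IsClosedUnderColimitsOfShape (Discrete J)) →
      (∀ I : C, Injective I → P ((DerivedCategory.singleFunctor C 0).obj I)) → ∀ X, P X)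
    (Z : DerivedCategory C)
    (hZ : ∀ I : C, Injective I → ∀ (t : ℤ)
      (f : (DerivedCategory.singleFunctor C 0).obj I ⟶ Z⟦t⟧), f = 0) :
    IsZero Z := by
  have key := hgen (shiftsOf Z).leftOrthogonal inferInstance inferInstance ?_ ?_ Z
  · rw [IsZero.iff_id_eq_zero]
    exact key (𝟙 Z) ⟨0, ⟨((shiftFunctorZero _ ℤ).app Z).symm⟩⟩
  · intro J
    constructor
    rintro X ⟨h⟩ Y f hY
    apply h.isColimit.hom_ext
    intro j
    rw [comp_zero]
    exact h.prop_diag_obj j _ hY
  · rintro I hI Y f ⟨t, ⟨e⟩⟩
    rw [← cancel_mono e.hom, zero_comp]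
    exact hZ I hI t _

end Vale.Agent.P176.Rickard
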