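import Vale.Agent.P176.Rickard.FFR

/-!
# Top-aligned finite free resolutions

Proof sketch for `exists_topAligned`. By `h` there is `M` with finite projective dimension which is
not at most `n`; so (`projectiveDimension_ne_top_iff`, `projectiveDimension_le_iff`, `Nat.find`)
there is `d ≥ n` with `HasProjectiveDimensionLT M (d + 2)` and `¬ HasProjectiveDimensionLT M (d + 1)`.
Take `(T, D, ε)` from `exists_ffr d M`. Let
`P := ChainComplex.of (fun n => ModuleCat.of A (T n →₀ A)) (fun n => ModuleCat.ofHom (D n)) _`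
and `idx t := if t ≤ d + 1 then d + 1 - t else t + 1`. Put `T' t := T (idx t)` and
`δ t := (P.d (idx t) (idx (t + 1))).hom`. Then `δ (t + 1) ∘ δ t = 0` by `P.d_comp_d`; for the
exactness statements first prove a statement for `P.d i j`, `P.d j l` with variables `i j l` and
hypotheses `i = j + 1`, `j = l + 1`, using `subst` and `ChainComplex.of_d`.
`δ 0 = D d` is injective because `T (d + 2)` is empty, and has no retraction.
-/

universe u

open CategoryTheory

namespace Vale.Agent.P176.Rickard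

variable {A : Type u} [Ring A]

/-- There are modules of arbitrarily large finite projective dimension. -/
lemma exists_exact_dimension
    (h : ¬ ∃ n : ℕ, ∀ M : ModuleCat.{u} A, projectiveDimension M ≠ ⊤ → projectiveDimension M ≤ n)
    (n : ℕ) :
    ∃ (M : ModuleCat.{u} A) (d : ℕ), n ≤ d ∧ HasProjectiveDimensionLT M (d + 2) ∧
      ¬ HasProjectiveDimensionLT M (d + 1) := by
  classical
  push Not at h
  obtain ⟨M, hM, hMn⟩ := h n
  rw [projectiveDimension_ne_top_iff] at hM
  rw [← not_le, projectiveDimension_le_iff] at hMn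
  have hex : ∃ e, HasProjectiveDimensionLT M e := by
    obtain ⟨m, hm⟩ := hM
    exact ⟨m + 1, hm⟩
  have hfind := Nat.find_spec hex
  have hlt : n + 1 < Nat.find hex := by
    by_contra hcon
    exact hMn (hasProjectiveDimensionLT_of_ge M (Nat.find hex) (n + 1) (not_lt.1 hcon))
  obtain ⟨d, hd⟩ : ∃ d, Nat.find hex = d + 2 := ⟨Nat.find hex - 2, by omega⟩
  refine ⟨M, d, by omega, hd ▸ hfind, ?_⟩
  exact Nat.find_min hex (by omega)

theorem exists_topAligned
    (h : ¬ ∃ n : ℕ, ∀ M : ModuleCat.{u} A, projectiveDimension M ≠ ⊤ → projectiveDimension M ≤ n)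
    (n : ℕ) :
    ∃ (T : ℕ → Type u) (δ : ∀ t, (T t →₀ A) →ₗ[A] (T (t + 1) →₀ A)),
      (∀ t, δ (t + 1) ∘ₗ δ t = 0) ∧ Function.Injective (δ 0) ∧
      (∀ t, t < n → ∀ x, δ (t + 1) x = 0 → ∃ y, δ t y = x) ∧
      ¬ ∃ r : (T 1 →₀ A) →ₗ[A] (T 0 →₀ A), r ∘ₗ δ 0 = LinearMap.id := by
  obtain ⟨M, d, hnd, hM, hM'⟩ := exists_exact_dimension h n
  obtain ⟨T, D, ε, -, -, hex, hempty, hret⟩ := exists_ffr d M hM
  let P : ChainComplex (ModuleCat.{u} A) ℕ :=
    ChainComplex.of (fun n => ModuleCat.of A (T n →₀ A)) (fun n => ModuleCat.ofHom (D n))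
      (fun n => by
        ext1
        refine LinearMap.ext fun y => ?_
        exact (hex n _).2 ⟨y, rfl⟩)
  let Pd : ∀ i j, (T i →₀ A) →ₗ[A] (T j →₀ A) := fun i j => (P.d i j).hom
  have hPd : ∀ j, Pd (j + 1) j = D j := fun j => by
    have : P.d (j + 1) j = ModuleCat.ofHom (D j) :=
      ChainComplex.of_d (fun n => ModuleCat.of A (T n →₀ A)) (fun n => ModuleCat.ofHom (D n)) j
    simp only [Pd, this]
    rfl
  have hcomp : ∀ i j l, Pd j l ∘ₗ Pd i j = 0 := fun i j l => by
    have := congrArg ModuleCat.Hom.hom (P.d_comp_d i j l)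
    exact this
  have hexact : ∀ i j l, i = j + 1 → j = l + 1 → ∀ x, Pd j l x = 0 → ∃ y, Pd i j y = x := by
    rintro i j l rfl rfl x hx
    rw [hPd] at hx
    rw [hPd]
    exact (hex l x).1 hx
  have hinj : ∀ i j, i = d + 1 → j = d → Function.Injective (Pd i j) := by
    intro i j hi hj
    subst hj
    subst hi
    rw [hPd, injective_iff_map_eq_zero]
    intro x hx
    obtain ⟨y, rfl⟩ := (hex j x).1 hx
    have := hempty (j + 1 + 1) (by omega)
    have hy : y = 0 := Subsingleton.elim _ _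
    rw [hy, map_zero]
  have hnr : ∀ i j, i = d + 1 → j = d →
      ¬ ∃ r : (T j →₀ A) →ₗ[A] (T i →₀ A), r ∘ₗ Pd i j = LinearMap.id := by
    intro i j hi hj
    subst hj
    subst hi
    rw [hPd]
    exact fun hr => hM' (hret hr)
  let idx : ℕ → ℕ := fun t => if t ≤ d + 1 then d + 1 - t else t + 1
  have hidx : ∀ t, t ≤ d + 1 → idx t = d + 1 - t := fun t ht => if_pos ht
  refine ⟨fun t => T (idx t), fun t => Pd (idx t) (idx (t + 1)), fun t => hcomp _ _ _,
    hinj _ _ (hidx 0 (by omega)) (by rw [hidx 1 (by omega)]; omega), ?_,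
    hnr _ _ (hidx 0 (by omega)) (by rw [hidx 1 (by omega)]; omega)⟩
  intro t ht x hx
  refine hexact _ _ _ ?_ ?_ x hx
  · rw [hidx t (by omega), hidx (t + 1) (by omega)]; omega
  · rw [hidx (t + 1 + 1) (by omega), hidx (t + 1) (by omega)]; omega

end Vale.Agent.P176.Rickard
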