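import Vale.Agent.P176.Rickard.ComplexDA
import Vale.Agent.P176.Rickard.Cogen
import Vale.Agent.P176.Rickard.Resolution
import Vale.Agent.P176.Rickard.Glue

/-!
# Injectives generate implies that the big finitistic dimension is finite
-/

universe w u

open CategoryTheory Limits

namespace Vale.Agent.P176.Rickard

theorem findim_finite_of_injectives_generate (k A : Type u) [Field k] [Ring A] [Algebra k A]
    [Module.Finite k A] [HasDerivedCategory.{w} (ModuleCat.{u} A)]
    (hgen : ∀ P : ObjectProperty (DerivedCategory (ModuleCat.{u} A)), P.IsTriangulated →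
      P.IsClosedUnderIsomorphisms →
      (∀ J : Type u, P.IsClosedUnderColimitsOfShape (Discrete J)) →
      (∀ I : ModuleCat.{u} A, Injective I →
        P ((DerivedCategory.singleFunctor (ModuleCat.{u} A) 0).obj I)) → ∀ X, P X) :
    ∃ n : ℕ, ∀ M : ModuleCat.{u} A, projectiveDimension M ≠ ⊤ → projectiveDimension M ≤ n := by
  by_contra hcon
  choose T δ hδ hinj hex hns using fun j => exists_topAligned hcon j
  let Y : CochainComplex (ModuleCat.{u} A) ℕ :=
    CochainComplex.of (fun t => ModuleCat.of A (YX k (A := A) T t))
      (fun t => ModuleCat.ofHom (Yd k δ t))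
      (fun t => by
        rw [← ModuleCat.ofHom_comp, Yd_comp k δ hδ t]
        rfl)
  have hd : ∀ t, Y.d t (t + 1) = ModuleCat.ofHom (Yd k δ t) := fun t =>
    CochainComplex.of_d (fun t => ModuleCat.of A (YX k (A := A) T t))
      (fun t => ModuleCat.ofHom (Yd k δ t)) t
  have hmono : Mono (Y.d 0 1) := by
    refine mono_d_of_generate hgen Y ?_ ?_ ?_
    · intro t
      have := YX_injective k (A := A) (T := T) t
      exact Module.injective_object_of_injective_module A (YX k (A := A) T t)
    · intro I hI f hf
      have hI' : Module.Injective A I := Module.injective_module_of_injective_object A I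
      obtain ⟨g, hg⟩ := lift_of_injective k (0 : PUnit.{u + 1} →ₗ[A] YX k (A := A) T 0) (Yd k δ 0)
        (fun f hf => ⟨0, by rw [Yd_DA_zero k δ hinj f hf]; simp⟩) I f.hom (by
          have := congrArg ModuleCat.Hom.hom hf
          rw [hd 0] at this
          exact this)
      ext x
      have := LinearMap.congr_fun hg x
      simpa using this.symm
    · intro I hI t f hf
      have hI' : Module.Injective A I := Module.injective_module_of_injective_object A I
      obtain ⟨g, hg⟩ := lift_of_injective k (Yd k δ t) (Yd k δ (t + 1))
        (fun f hf => Yd_DA_succ k δ hex t f hf) I f.hom (by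
          have := congrArg ModuleCat.Hom.hom hf
          rw [hd (t + 1)] at this
          exact this)
      refine ⟨ModuleCat.ofHom g, ?_⟩
      rw [hd t]
      ext x
      exact LinearMap.congr_fun hg x
  rw [hd 0, ModuleCat.mono_iff_injective] at hmono
  exact Yd_zero_not_injective k δ hns hmono

end Vale.Agent.P176.Rickard
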