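import Vale.Agent.P176.Rickard.DALemmas

/-!
# The Nakayama functor on free modules

Proof sketches.
* `nu_theta`: induction on `x` (`Finsupp.induction_linear`), using `theta_add`, `theta_single`,
  `nu_single`, `theta_smul` and `single s a = a • single s 1`.
* `nu_comp`, `nu_zero`: check on `single s φ` (`Finsupp.lhom_ext`), using `nu_theta`.
* `theta_injective`: if `theta y = theta z` then `φ (y s * 1) = φ (z s * 1)` for all `φ`, use
  `DA.eq_zero_of_forall`.
* `theta_surjective`: let `h : DA →ₗ[A] (S →₀ DA)`. As `DA` is finitely generated there is a finite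
  set `S₀` containing the supports of all `h φ`. For each `s` the map `φ ↦ h φ s` is an endomorphism of
  `DA`, so equals `rmul (a s)` by `DA.exists_rmul`, where `a s = 0` for `s ∉ S₀` by
  `DA.eq_zero_of_forall`. Take `y = Finsupp.onFinset S₀ a _`.
* `exists_retraction_of_nu`: define `r' y` as the unique element with `theta (r' y) = r ∘ₗ theta y`.
  It is additive by `theta_add` and injectivity, `A`-linear by `theta_smul`, and
  `theta (r' (g x)) φ = r (theta (g x) φ) = r (nu g (theta x φ)) = theta x φ`.
-/

universe u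

namespace Vale.Agent.P176.Rickard

open Finsupp

variable {k : Type u} {A : Type u} [Field k] [Ring A] [Algebra k A]
variable {S T U : Type u}

lemma nu_theta (g : (S →₀ A) →ₗ[A] (T →₀ A)) (x : S →₀ A) (φ : DA k A) :
    nu g (theta x φ) = theta (g x) φ := by
  induction x using Finsupp.induction_linear with
  | zero => simp
  | add x y hx hy =>
    rw [theta_add, LinearMap.add_apply, map_add, hx, hy, map_add, theta_add, LinearMap.add_apply]
  | single s a =>
    rw [theta_single, nu_single, ← theta_smul, ← map_smul, Finsupp.smul_single, smul_eq_mul,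
      mul_one]

lemma nu_comp (g' : (T →₀ A) →ₗ[A] (U →₀ A)) (g : (S →₀ A) →ₗ[A] (T →₀ A)) :
    (nu (g' ∘ₗ g) : (S →₀ DA k A) →ₗ[A] (U →₀ DA k A)) = nu g' ∘ₗ nu g := by
  apply Finsupp.lhom_ext
  intro s φ
  rw [LinearMap.comp_apply, nu_single, nu_single, nu_theta, LinearMap.comp_apply]

lemma nu_zero :
    (nu (0 : (S →₀ A) →ₗ[A] (T →₀ A)) : (S →₀ DA k A) →ₗ[A] (T →₀ DA k A)) = 0 := by
  apply Finsupp.lhom_ext
  intro s φ
  rw [nu_single]
  simp

lemma theta_injective :
    Function.Injective (theta : (S →₀ A) → (DA k A →ₗ[A] (S →₀ DA k A))) := by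
  intro y z h
  ext s
  rw [← sub_eq_zero]
  apply DA.eq_zero_of_forall (k := k)
  intro φ
  have h1 := DFunLike.congr_fun (DFunLike.congr_fun (LinearMap.congr_fun h φ) s) 1
  simp only [theta_apply_apply, DA.rmul_apply, mul_one] at h1
  have : φ (y s - z s) = φ (y s) - φ (z s) := φ.toLin.map_sub _ _
  rw [this, h1, sub_self]

lemma theta_surjective [Module.Finite k A] :
    Function.Surjective (theta : (S →₀ A) → (DA k A →ₗ[A] (S →₀ DA k A))) := by
  classical
  intro h
  obtain ⟨G, hG⟩ := (DA.finite (k := k) (A := A)).fg_top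
  -- the finite set of indices
  let S₀ : Finset S := G.biUnion (fun φ => (h φ).support)
  have hS₀ : ∀ φ : DA k A, ∀ s, s ∉ S₀ → h φ s = 0 := by
    intro φ s hs
    have hφ : φ ∈ Submodule.span A (G : Set (DA k A)) := by rw [hG]; trivial
    induction hφ using Submodule.span_induction with
    | mem x hx =>
      by_contra hne
      exact hs (Finset.mem_biUnion.2 ⟨x, hx, Finsupp.mem_support_iff.2 hne⟩)
    | zero => simp
    | add x y _ _ hx hy => simp [hx, hy]
    | smul a x _ hx => simp [hx]
  choose a ha using fun s => DA.exists_rmul ((Finsupp.lapply s : (S →₀ DA k A) →ₗ[A] DA k A) ∘ₗ h)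
  have ha' : ∀ s φ, h φ s = DA.rmul (a s) φ := fun s φ => LinearMap.congr_fun (ha s) φ
  have ha0 : ∀ s, s ∉ S₀ → a s = 0 := by
    intro s hs
    apply DA.eq_zero_of_forall (k := k)
    intro φ
    have := DFunLike.congr_fun (ha' s φ) 1
    rw [hS₀ φ s hs] at this
    simpa using this.symm
  refine ⟨Finsupp.onFinset S₀ a (fun s hs => by by_contra hn; exact hs (ha0 s hn)), ?_⟩
  ext φ s x
  simp [ha']

/-- A retraction of `nu g` gives a retraction of `g`. -/
lemma exists_retraction_of_nu [Module.Finite k A] (g : (S →₀ A) →ₗ[A] (T →₀ A))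
    (r : (T →₀ DA k A) →ₗ[A] (S →₀ DA k A)) (hr : r ∘ₗ nu g = LinearMap.id) :
    ∃ r' : (T →₀ A) →ₗ[A] (S →₀ A), r' ∘ₗ g = LinearMap.id := by
  choose r' hr' using fun y : T →₀ A => theta_surjective (k := k) (r ∘ₗ theta y)
  refine ⟨{ toFun := r', map_add' := ?_, map_smul' := ?_ }, ?_⟩
  · intro y z
    apply theta_injective (k := k)
    rw [hr', theta_add, theta_add, hr', hr', LinearMap.comp_add]
  · intro a y
    apply theta_injective (k := k)
    ext1 φ
    rw [hr', RingHom.id_apply, theta_smul, hr', LinearMap.comp_apply, LinearMap.comp_apply,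
      theta_smul]
  · refine LinearMap.ext fun x => ?_
    apply theta_injective (k := k)
    ext1 φ
    change theta (r' (g x)) φ = theta x φ
    rw [hr', LinearMap.comp_apply, ← nu_theta, ← LinearMap.comp_apply, hr, LinearMap.id_apply]

end Vale.Agent.P176.Rickard
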