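import Mathlib

/-!
# The Eilenberg swindle

For a projective module `K` there is a free module `F` with `K × F` free.
Proof sketch: `K` is a retract of the free module `F₀ = K →₀ A`, so `F₀ ≃ K × Q` with `Q` the kernel
of the retraction. Put `F = ℕ →₀ F₀` (free). Then
`K × F ≃ K × (ℕ →₀ K) × (ℕ →₀ Q) ≃ (ℕ →₀ K) × (ℕ →₀ Q) ≃ F`, using `K × (ℕ →₀ K) ≃ (ℕ →₀ K)`
(index shift, `Option ℕ ≃ ℕ` or `Unit ⊕ ℕ ≃ ℕ`, `Finsupp.sumFinsuppLEquivProdFinsupp`,
`Finsupp.domLCongr`, `Finsupp.LinearEquiv.finsuppUnique`).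
Conclude with `Module.Free.of_equiv`.
-/

universe u

namespace Vale.Agent.P176.Rickard

section

variable {A : Type u} [Ring A]

/-- A retract splits off. -/
noncomputable def retractEquiv {K F : Type u} [AddCommGroup K] [Module A K] [AddCommGroup F]
    [Module A F] (i : K →ₗ[A] F) (π : F →ₗ[A] K) (h : π ∘ₗ i = LinearMap.id) :
    F ≃ₗ[A] K × LinearMap.ker π :=
  LinearEquiv.ofLinearMap
    (LinearMap.prod π (LinearMap.codRestrict (LinearMap.ker π) (LinearMap.id - i ∘ₗ π) (by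
      intro x
      have h1 : π (i (π x)) = π x := LinearMap.congr_fun h (π x)
      simp [LinearMap.mem_ker, h1])))
    (LinearMap.coprod i (LinearMap.ker π).subtype)
    (by
      apply LinearMap.ext
      rintro ⟨k, q, hq⟩
      have h1 : π (i k) = k := LinearMap.congr_fun h k
      have hq' : π q = 0 := hq
      ext <;> simp [h1, hq'])
    (by
      apply LinearMap.ext
      intro x
      simp)

/-- Finitely supported functions into a product. -/
noncomputable def finsuppProdSplit (ι : Type) (K Q : Type u) [AddCommGroup K] [Module A K] [AddCommGroup Q]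
    [Module A Q] : (ι →₀ K × Q) ≃ₗ[A] (ι →₀ K) × (ι →₀ Q) :=
  LinearEquiv.ofLinearMap
    (LinearMap.prod (Finsupp.mapRange.linearMap (LinearMap.fst A K Q))
      (Finsupp.mapRange.linearMap (LinearMap.snd A K Q)))
    (LinearMap.coprod (Finsupp.mapRange.linearMap (LinearMap.inl A K Q))
      (Finsupp.mapRange.linearMap (LinearMap.inr A K Q)))
    (by
      apply LinearMap.ext
      rintro ⟨f, g⟩
      ext j <;> simp)
    (by
      apply LinearMap.ext
      intro f
      ext j <;> simp)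

/-- The index shift. -/
noncomputable def shiftEquiv (K : Type u) [AddCommGroup K] [Module A K] :
    (K × (ℕ →₀ K)) ≃ₗ[A] (ℕ →₀ K) :=
  (LinearEquiv.prodComm A K (ℕ →₀ K)) ≪≫ₗ
  (LinearEquiv.prodCongr (LinearEquiv.refl A (ℕ →₀ K))
    (Finsupp.uniqueLinearEquiv A K PUnit.unit.{1}).symm) ≪≫ₗ
  (Finsupp.sumFinsuppLEquivProdFinsupp A).symm ≪≫ₗ
  Finsupp.domLCongr ((Equiv.optionEquivSumPUnit.{0} ℕ).symm.trans (Denumerable.eqv (Option ℕ)))

end

theorem exists_free_prod_free {A : Type u} [Ring A] (K : Type u) [AddCommGroup K] [Module A K]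
    [Module.Projective A K] :
    ∃ (F : Type u) (_ : AddCommGroup F) (_ : Module A F), Module.Free A F ∧ Module.Free A (K × F) := by
  obtain ⟨s, hs⟩ := Module.Projective.out (R := A) (P := K)
  have h : (Finsupp.linearCombination A id) ∘ₗ s = LinearMap.id := LinearMap.ext hs
  set Q := LinearMap.ker (Finsupp.linearCombination A (id : K → K)) with hQ
  let e₀ : (K →₀ A) ≃ₗ[A] K × Q := retractEquiv s _ h
  let e₁ : (ℕ →₀ (K →₀ A)) ≃ₗ[A] (ℕ →₀ K) × (ℕ →₀ Q) :=
    (Finsupp.mapRange.linearEquiv e₀) ≪≫ₗ finsuppProdSplit ℕ K Q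
  let e₂ : (K × (ℕ →₀ (K →₀ A))) ≃ₗ[A] (ℕ →₀ (K →₀ A)) :=
    (LinearEquiv.prodCongr (LinearEquiv.refl A K) e₁) ≪≫ₗ
    (LinearEquiv.prodAssoc A K (ℕ →₀ K) (ℕ →₀ Q)).symm ≪≫ₗ
    (LinearEquiv.prodCongr (shiftEquiv K) (LinearEquiv.refl A (ℕ →₀ Q))) ≪≫ₗ e₁.symm
  exact ⟨ℕ →₀ (K →₀ A), inferInstance, inferInstance, inferInstance, Module.Free.of_equiv e₂.symm⟩

end Vale.Agent.P176.Rickard
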